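import Vale.Agent.P004.R2.H123.Iface
import Vale.Agent.P004G.H293.RA

/-!
# P004: the big block, truncated by size, in the random model
-/

open Finset Real

namespace P004G.H293

variable [Crv]

open P004.H293

open P004.H628 (yk_pos yk_anti)
open P004G.H628 (mem_Ik Ik_disj)

/-- the big block -/
noncomputable def MB (I : Finset ℕ) (x z₀ : ℝ) (ω : ℕ → ℝ) : ℝ :=
  ∑ a ∈ (∏ p ∈ I, p ^ 2).divisors,
    (if (a : ℝ) ≤ x then muc a * (a : ℝ) ^ (-1 - z₀) else 0) * ffx ω a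

/-- the truncation error -/
noncomputable def RB (I : Finset ℕ) (x z₀ : ℝ) (ω : ℕ → ℝ) : ℝ :=
  ∑ a ∈ (∏ p ∈ I, p ^ 2).divisors,
    (if (a : ℝ) ≤ x then 0 else muc a * (a : ℝ) ^ (-1 - z₀)) * ffx ω a

lemma MB_add_RB {I : Finset ℕ} (hI : ∀ p ∈ I, p.Prime) (x z₀ : ℝ) (ω : ℕ → ℝ) :
    MB I x z₀ ω + RB I x z₀ ω = ∏ p ∈ I, Np p z₀ (ω p) := by
  rw [← full_block I hI, MB, RB, ← Finset.sum_add_distrib]
  refine Finset.sum_congr rfl fun a _ => ?_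
  split_ifs <;> ring

lemma MB_depOn {I : Finset ℕ} (hI : ∀ p ∈ I, p.Prime) (x z₀ : ℝ) :
    DepOn I (fun ω => MB I x z₀ ω) :=
  depOn_sum_ffx (fun a ha => (mem_div hI ha).2)
    (fun a => if (a : ℝ) ≤ x then muc a * (a : ℝ) ^ (-1 - z₀) else 0)

/-- the majorant coefficients -/
noncomputable def hB (δ : ℝ) (p v : ℕ) : ℝ :=
  if v = 1 then 2 * (p : ℝ) ^ (-(1 / 2) - δ) else if v = 2 then ((p : ℝ) ^ (-(1 / 2) - δ)) ^ 2
    else 0

lemma hB_nonneg (δ : ℝ) (p v : ℕ) : 0 ≤ hB δ p v := by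
  unfold hB
  split_ifs <;> positivity

/-- the majorant block polynomial -/
lemma majB_block (I : Finset ℕ) (hI : ∀ p ∈ I, p.Prime) (δ : ℝ) (ω : ℕ → ℝ) :
    ∑ a ∈ (∏ p ∈ I, p ^ 2).divisors,
      (∏ p ∈ a.primeFactors, hB δ p (a.factorization p)) * ffx ω a =
      ∏ p ∈ I, (1 + (p : ℝ) ^ (-(1 / 2) - δ) * ω p) ^ 2 := by
  have h1 : ∑ a ∈ (∏ p ∈ I, p ^ 2).divisors,
      (∏ p ∈ a.primeFactors, hB δ p (a.factorization p)) * ffx ω a =
      ∑ a ∈ (∏ p ∈ I, p ^ 2).divisors, ∏ p ∈ a.primeFactors,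
        (fun p v => hB δ p v * ω p ^ v) p (a.factorization p) := by
    refine Finset.sum_congr rfl fun a ha => ?_
    rw [ffx, ← Finset.prod_mul_distrib]
  rw [h1, sum_divisors_sq I hI (fun p v => hB δ p v * ω p ^ v)]
  refine Finset.prod_congr rfl fun p hp => ?_
  unfold hB
  simp only [if_true, pow_one, OfNat.ofNat_ne_one, if_false]
  ring

/-- coefficient bound -/
lemma abs_gg_le' (hc : StCoef) {p : ℕ} (hp : p.Prime) (z₀ δ : ℝ) (v : ℕ) :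
    |gg z₀ p v| * ((p : ℝ) ^ v) ^ δ ≤ hB (z₀ - δ) p v := by
  have hp0 : (0 : ℝ) < p := by exact_mod_cast hp.pos
  unfold gg hB
  by_cases h1 : v = 1
  · subst h1
    simp only [if_true, pow_one]
    rw [abs_mul, abs_neg, abs_of_pos (Real.rpow_pos_of_pos hp0 _)]
    have hca : |(ca p : ℝ)| ≤ 2 * (p : ℝ) ^ (1 / 2 : ℝ) := by
      have := abs_lam_le hc hp
      unfold lam at this
      rw [abs_div, abs_of_nonneg (Real.sqrt_nonneg _), div_le_iff₀ (Real.sqrt_pos.2 hp0),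
        Real.sqrt_eq_rpow] at this
      exact this
    have e : (p : ℝ) ^ (1 / 2 : ℝ) * (p : ℝ) ^ (-1 - z₀) * (p : ℝ) ^ δ =
        (p : ℝ) ^ (-(1 / 2) - (z₀ - δ)) := by
      rw [← Real.rpow_add hp0, ← Real.rpow_add hp0]; congr 1; ring
    have h2 : 0 < (p : ℝ) ^ (-1 - z₀) := Real.rpow_pos_of_pos hp0 _
    have h3 : 0 < (p : ℝ) ^ δ := Real.rpow_pos_of_pos hp0 _
    calc |(ca p : ℝ)| * (p : ℝ) ^ (-1 - z₀) * (p : ℝ) ^ δ
        ≤ (2 * (p : ℝ) ^ (1 / 2 : ℝ)) * (p : ℝ) ^ (-1 - z₀) * (p : ℝ) ^ δ := by gcongr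
      _ = 2 * ((p : ℝ) ^ (1 / 2 : ℝ) * (p : ℝ) ^ (-1 - z₀) * (p : ℝ) ^ δ) := by ring
      _ = _ := by rw [e]
  · by_cases h2 : v = 2
    · subst h2
      simp only [OfNat.ofNat_ne_one, if_false, if_true]
      have e : (p : ℝ) * ((p : ℝ) ^ 2) ^ (-1 - z₀) * ((p : ℝ) ^ 2) ^ δ =
          ((p : ℝ) ^ (-(1 / 2) - (z₀ - δ))) ^ 2 := by
        rw [← Real.rpow_natCast (p : ℝ) 2, ← Real.rpow_mul hp0.le, ← Real.rpow_mul hp0.le,
          ← Real.rpow_natCast ((p : ℝ) ^ (-(1 / 2) - (z₀ - δ))) 2, ← Real.rpow_mul hp0.le]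
        nth_rw 1 [← Real.rpow_one (p : ℝ)]
        rw [← Real.rpow_add hp0, ← Real.rpow_add hp0]
        congr 1
        push_cast
        ring
      rw [abs_of_nonneg (by positivity), e]
    · simp [h1, h2]

lemma abs_cc_le' (hc : StCoef) (z₀ δ : ℝ) {a : ℕ} (ha : a ≠ 0) :
    |muc a * (a : ℝ) ^ (-1 - z₀)| * (a : ℝ) ^ δ ≤
      ∏ p ∈ a.primeFactors, hB (z₀ - δ) p (a.factorization p) := by
  rw [cc_eq ha, Finset.abs_prod, rpow_eq_prod ha δ, ← Finset.prod_mul_distrib]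
  refine Finset.prod_le_prod (fun _ _ => by positivity) fun p hp => ?_
  exact abs_gg_le' hc (Nat.prime_of_mem_primeFactors hp) _ _ _

/-- eighth and fourth moments of one factor of the majorant -/
lemma E1_majB {p : ℕ} (hp : 1 ≤ p) {δ : ℝ} (hδ : 0 ≤ δ) :
    E1 p (fun x => (1 + (p : ℝ) ^ (-(1 / 2) - δ) * x) ^ 8) ≤
      1 + 128 * (p : ℝ) ^ (-1 - 2 * δ) ∧
    E1 p (fun x => (1 + (p : ℝ) ^ (-(1 / 2) - δ) * x) ^ 4) ≤
      1 + 128 * (p : ℝ) ^ (-1 - 2 * δ) := by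
  have hp' : (1 : ℝ) ≤ p := by exact_mod_cast hp
  have hp0 : (0 : ℝ) < p := by linarith
  set r : ℝ := (p : ℝ) ^ (-(1 / 2) - δ) with hrdef
  have hr0 : 0 ≤ r := by positivity
  have hr1 : r ≤ 1 := Real.rpow_le_one_of_one_le_of_nonpos hp' (by linarith)
  have hr2 : r ^ 2 = (p : ℝ) ^ (-1 - 2 * δ) := by
    rw [hrdef, ← Real.rpow_natCast, ← Real.rpow_mul hp0.le]
    congr 1
    push_cast
    ring
  have h1p : (1 : ℝ) / p ≤ 1 := by rw [div_le_one hp0]; exact hp'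
  have h0p : (0 : ℝ) ≤ 1 / p := by positivity
  rw [← hr2]
  set q := r ^ 2 with hq
  have hq0 : 0 ≤ q := by positivity
  have hq1 : q ≤ 1 := by rw [hq]; nlinarith
  have h8 : E1 p (fun x => (1 + r * x) ^ 8) ≤ 1 + 128 * q := by
    unfold E1
    beta_reduce
    have e1 : (1 + r * 0) ^ 8 = 1 := by ring
    have e2 : (1 + r * 1) ^ 8 + (1 + r * (-1)) ^ 8 =
        2 * (1 + 28 * q + 70 * q ^ 2 + 28 * q ^ 3 + q ^ 4) := by
      rw [hq]; ring
    rw [e1, e2]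
    have q2 : q ^ 2 ≤ q := by nlinarith
    have q3 : q ^ 3 ≤ q := by
      calc q ^ 3 = q ^ 2 * q := by ring
        _ ≤ q * q := by gcongr
        _ = q ^ 2 := by ring
        _ ≤ q := q2
    have q4 : q ^ 4 ≤ q := by
      calc q ^ 4 = q ^ 3 * q := by ring
        _ ≤ q * q := by gcongr
        _ = q ^ 2 := by ring
        _ ≤ q := q2
    have hbig : 1 + 28 * q + 70 * q ^ 2 + 28 * q ^ 3 + q ^ 4 ≤ 1 + 128 * q := by linarith
    have hpos : 0 ≤ (1 - 1 / (p : ℝ)) / 2 := by linarith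
    calc 1 / (p : ℝ) * 1 + (1 - 1 / (p : ℝ)) / 2 *
          (2 * (1 + 28 * q + 70 * q ^ 2 + 28 * q ^ 3 + q ^ 4))
        ≤ 1 / (p : ℝ) * (1 + 128 * q) + (1 - 1 / (p : ℝ)) / 2 * (2 * (1 + 128 * q)) := by
          gcongr
          linarith
      _ = 1 + 128 * q := by ring
  refine ⟨h8, ?_⟩
  have hle : E1 p (fun x => (1 + r * x) ^ 4) ≤
      E1 p (fun x => 1 / 2 * 1 + 1 / 2 * (1 + r * x) ^ 8) := by
    refine E1_mono (by omega) fun x _ => ?_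
    nlinarith [sq_nonneg ((1 + r * x) ^ 4 - 1)]
  rw [E1_add, E1_mul_left, E1_mul_left, E1_const] at hle
  linarith

section
variable {I : Finset ℕ} (hI : ∀ p ∈ I, p.Prime) (hI3 : ∀ p ∈ I, 3 ≤ p)
include hI

lemma prod_E1_maj8 {δ : ℝ} (hδ : 0 ≤ δ) :
    ∏ p ∈ I, E1 p (fun x => (1 + (p : ℝ) ^ (-(1 / 2) - δ) * x) ^ 8) ≤
      Real.exp (128 * ∑ p ∈ I, (p : ℝ) ^ (-1 - 2 * δ)) := by
  rw [Finset.mul_sum, Real.exp_sum]
  refine Finset.prod_le_prod (fun p hp => ?_) fun p hp => ?_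
  · have := E1_mono (hI p hp).one_lt.le (G := fun _ => 0)
      (H := fun x => (1 + (p : ℝ) ^ (-(1 / 2) - δ) * x) ^ 8) (fun x _ => by positivity)
    rwa [E1_const] at this
  · exact (E1_majB (hI p hp).one_lt.le hδ).1.trans (by
      linarith [Real.add_one_le_exp (128 * (p : ℝ) ^ (-1 - 2 * δ))])

lemma prod_E1_maj4 {δ : ℝ} (hδ : 0 ≤ δ) :
    ∏ p ∈ I, E1 p (fun x => (1 + (p : ℝ) ^ (-(1 / 2) - δ) * x) ^ 4) ≤
      Real.exp (128 * ∑ p ∈ I, (p : ℝ) ^ (-1 - 2 * δ)) := by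
  rw [Finset.mul_sum, Real.exp_sum]
  refine Finset.prod_le_prod (fun p hp => ?_) fun p hp => ?_
  · have := E1_mono (hI p hp).one_lt.le (G := fun _ => 0)
      (H := fun x => (1 + (p : ℝ) ^ (-(1 / 2) - δ) * x) ^ 4) (fun x _ => by positivity)
    rwa [E1_const] at this
  · exact (E1_majB (hI p hp).one_lt.le hδ).2.trans (by
      linarith [Real.add_one_le_exp (128 * (p : ℝ) ^ (-1 - 2 * δ))])

/-- second moment of the big block -/
theorem EE_MB2 (hc : StCoef) (x : ℝ) {z₀ : ℝ} (hz₀ : 0 ≤ z₀) :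
    EE I (fun ω => MB I x z₀ ω ^ 2) ≤
      Real.exp (128 * ∑ p ∈ I, (p : ℝ) ^ (-1 - 2 * z₀)) := by
  have hS : ∀ p ∈ I, 1 ≤ p := fun p hp => (hI p hp).one_lt.le
  have h1 : EE I (fun ω => MB I x z₀ ω ^ 2) ≤
      EE I (fun ω => (∑ a ∈ (∏ p ∈ I, p ^ 2).divisors,
        (∏ p ∈ a.primeFactors, hB z₀ p (a.factorization p)) * ffx ω a) ^ 2) := by
    unfold MB
    refine Dom.two hS _ _ _ (fun a ha => (mem_div hI ha).1) fun a ha => ?_
    obtain ⟨ha0, haI⟩ := mem_div hI ha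
    have hnn : 0 ≤ ∏ p ∈ a.primeFactors, hB z₀ p (a.factorization p) :=
      Finset.prod_nonneg fun _ _ => hB_nonneg _ _ _
    split_ifs with h
    · have := abs_cc_le' hc z₀ 0 ha0
      rwa [Real.rpow_zero, mul_one, sub_zero] at this
    · simpa using hnn
  refine h1.trans ?_
  simp only [majB_block I hI]
  have h2 : EE I (fun ω => (∏ p ∈ I, (1 + (p : ℝ) ^ (-(1 / 2) - z₀) * ω p) ^ 2) ^ 2) =
      ∏ p ∈ I, E1 p (fun x => (1 + (p : ℝ) ^ (-(1 / 2) - z₀) * x) ^ 4) := by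
    rw [← EE_prod]
    congr 1
    funext ω
    rw [← Finset.prod_pow]
    refine Finset.prod_congr rfl fun p _ => ?_
    ring
  rw [h2]
  exact prod_E1_maj4 hI hz₀

/-- fourth moment of the big block -/
theorem EE_MB4 (hc : StCoef) (x : ℝ) {z₀ : ℝ} (hz₀ : 0 ≤ z₀) :
    EE I (fun ω => MB I x z₀ ω ^ 4) ≤
      Real.exp (128 * ∑ p ∈ I, (p : ℝ) ^ (-1 - 2 * z₀)) := by
  have hS : ∀ p ∈ I, 1 ≤ p := fun p hp => (hI p hp).one_lt.le
  have h1 : EE I (fun ω => MB I x z₀ ω ^ 4) ≤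
      EE I (fun ω => (∑ a ∈ (∏ p ∈ I, p ^ 2).divisors,
        (∏ p ∈ a.primeFactors, hB z₀ p (a.factorization p)) * ffx ω a) ^ 4) := by
    unfold MB
    refine Dom.four hS _ _ _ (fun a ha => (mem_div hI ha).1) fun a ha => ?_
    obtain ⟨ha0, haI⟩ := mem_div hI ha
    have hnn : 0 ≤ ∏ p ∈ a.primeFactors, hB z₀ p (a.factorization p) :=
      Finset.prod_nonneg fun _ _ => hB_nonneg _ _ _
    split_ifs with h
    · have := abs_cc_le' hc z₀ 0 ha0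
      rwa [Real.rpow_zero, mul_one, sub_zero] at this
    · simpa using hnn
  refine h1.trans ?_
  simp only [majB_block I hI]
  have h2 : EE I (fun ω => (∏ p ∈ I, (1 + (p : ℝ) ^ (-(1 / 2) - z₀) * ω p) ^ 2) ^ 4) =
      ∏ p ∈ I, E1 p (fun x => (1 + (p : ℝ) ^ (-(1 / 2) - z₀) * x) ^ 8) := by
    rw [← EE_prod]
    congr 1
    funext ω
    rw [← Finset.prod_pow]
    refine Finset.prod_congr rfl fun p _ => ?_
    ring
  rw [h2]
  exact prod_E1_maj8 hI hz₀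

/-- fourth moment of the truncation error -/
theorem EE_RB4 (hc : StCoef) {x : ℝ} (hx : 0 < x) {z₀ : ℝ} (hz₀ : 0 ≤ z₀) :
    EE I (fun ω => RB I x z₀ ω ^ 4) ≤
      (x ^ (-(z₀ / 2))) ^ 4 * Real.exp (128 * ∑ p ∈ I, (p : ℝ) ^ (-1 - z₀)) := by
  have hS : ∀ p ∈ I, 1 ≤ p := fun p hp => (hI p hp).one_lt.le
  have h1 : EE I (fun ω => RB I x z₀ ω ^ 4) ≤
      EE I (fun ω => (∑ a ∈ (∏ p ∈ I, p ^ 2).divisors,
        (x ^ (-(z₀ / 2)) * ∏ p ∈ a.primeFactors, hB (z₀ / 2) p (a.factorization p)) *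
          ffx ω a) ^ 4) := by
    unfold RB
    refine Dom.four hS _ _ _ (fun a ha => (mem_div hI ha).1) fun a ha => ?_
    obtain ⟨ha0, haI⟩ := mem_div hI ha
    have hnn : 0 ≤ ∏ p ∈ a.primeFactors, hB (z₀ / 2) p (a.factorization p) :=
      Finset.prod_nonneg fun _ _ => hB_nonneg _ _ _
    have hxp : 0 < x ^ (-(z₀ / 2)) := Real.rpow_pos_of_pos hx _
    split_ifs with h
    · rw [abs_zero]; positivity
    · rw [not_le] at h
      have h2 := abs_cc_le' hc z₀ (z₀ / 2) ha0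
      rw [show z₀ - z₀ / 2 = z₀ / 2 by ring] at h2
      have ha1 : (0 : ℝ) < a := by exact_mod_cast Nat.pos_of_ne_zero ha0
      have h3 : 1 ≤ x ^ (-(z₀ / 2)) * (a : ℝ) ^ (z₀ / 2) := by
        rw [Real.rpow_neg hx.le, ← div_eq_inv_mul, ← Real.div_rpow ha1.le hx.le]
        exact Real.one_le_rpow (by rw [le_div_iff₀ hx]; linarith) (by linarith)
      have h4 : 0 ≤ |muc a * (a : ℝ) ^ (-1 - z₀)| := abs_nonneg _
      calc |muc a * (a : ℝ) ^ (-1 - z₀)|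
          ≤ |muc a * (a : ℝ) ^ (-1 - z₀)| * (x ^ (-(z₀ / 2)) * (a : ℝ) ^ (z₀ / 2)) :=
            le_mul_of_one_le_right h4 h3
        _ = x ^ (-(z₀ / 2)) * (|muc a * (a : ℝ) ^ (-1 - z₀)| * (a : ℝ) ^ (z₀ / 2)) := by ring
        _ ≤ _ := by gcongr
  refine h1.trans ?_
  have h3 : ∀ ω, (∑ a ∈ (∏ p ∈ I, p ^ 2).divisors,
        (x ^ (-(z₀ / 2)) * ∏ p ∈ a.primeFactors, hB (z₀ / 2) p (a.factorization p)) *
          ffx ω a) ^ 4 =
      (x ^ (-(z₀ / 2))) ^ 4 * ∏ p ∈ I, (1 + (p : ℝ) ^ (-(1 / 2) - z₀ / 2) * ω p) ^ 8 := by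
    intro ω
    simp only [mul_assoc]
    rw [← Finset.mul_sum, majB_block I hI, mul_pow, ← Finset.prod_pow]
    congr 1
    refine Finset.prod_congr rfl fun p _ => ?_
    ring
  simp only [h3]
  rw [EE_mul_left, EE_prod I (fun p x => (1 + (p : ℝ) ^ (-(1 / 2) - z₀ / 2) * x) ^ 8)]
  have h5 := prod_E1_maj8 hI (δ := z₀ / 2) (by linarith)
  rw [show -1 - 2 * (z₀ / 2) = -1 - z₀ by ring] at h5
  exact mul_le_mul_of_nonneg_left h5 (by positivity)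

include hI3

/-- fourth moment of the Euler product -/
theorem EE_L4' (hc : StCoef) {z : ℂ} (hz : 0 ≤ z.re) :
    EE I (fun ω => ∏ p ∈ I, ‖Lp p (1 + z) (ω p)‖ ^ 4) ≤
      Real.exp (3000000 * ∑ p ∈ I, (p : ℝ) ^ (-1 - 2 * z.re)) := by
  rw [EE_prod I (fun p x => ‖Lp p (1 + z) x‖ ^ 4), Finset.mul_sum, Real.exp_sum]
  refine Finset.prod_le_prod (fun p hp => ?_) fun p hp => ?_
  · have := E1_mono (hI p hp).one_lt.le (G := fun _ => 0)
      (H := fun x => ‖Lp p (1 + z) x‖ ^ 4) (fun x _ => by positivity)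
    rwa [E1_const] at this
  · refine (E1_Lp4 hc (hI p hp) (hI3 p hp) hz).trans ?_
    rw [norm_tt_sq (hI p hp).pos]
    linarith [Real.add_one_le_exp (3000000 * (p : ℝ) ^ (-1 - 2 * z.re))]

omit hI3 in
omit hI in
omit [Crv] in
lemma rpow_le_inv {p : ℕ} (hp : 1 ≤ p) {t : ℝ} (ht : 0 ≤ t) : (p : ℝ) ^ (-1 - t) ≤ 1 / p := by
  have hp' : (1 : ℝ) ≤ p := by exact_mod_cast hp
  calc (p : ℝ) ^ (-1 - t) ≤ (p : ℝ) ^ (-1 : ℝ) :=
        Real.rpow_le_rpow_of_exponent_le hp' (by linarith)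
    _ = 1 / p := by rw [Real.rpow_neg_one, one_div]

omit hI3 in
omit [Crv] in
lemma sum_rpow_le_inv {t : ℝ} (ht : 0 ≤ t) :
    ∑ p ∈ I, (p : ℝ) ^ (-1 - t) ≤ ∑ p ∈ I, (1 : ℝ) / p :=
  Finset.sum_le_sum fun p hp => rpow_le_inv (hI p hp).one_lt.le ht

/-- the big block times the Euler product, any `z` with `0 ≤ Re z` -/
theorem EE_MBL (hc : StCoef) (x : ℝ) {z₀ : ℝ} (hz₀ : 0 ≤ z₀) {z : ℂ} (hz : 0 ≤ z.re) :
    EE I (fun ω => MB I x z₀ ω ^ 2 * ∏ p ∈ I, ‖Lp p (1 + z) (ω p)‖ ^ 2) ≤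
      Real.exp (3000000 * ∑ p ∈ I, (1 : ℝ) / p) := by
  have hS : ∀ p ∈ I, 1 ≤ p := fun p hp => (hI p hp).one_lt.le
  have h1 : EE I (fun ω => MB I x z₀ ω ^ 2 * ∏ p ∈ I, ‖Lp p (1 + z) (ω p)‖ ^ 2) ≤
      EE I (fun ω => 1 / 2 * MB I x z₀ ω ^ 4 + 1 / 2 * ∏ p ∈ I, ‖Lp p (1 + z) (ω p)‖ ^ 4) := by
    refine EE_mono hS fun ω _ => ?_
    have e : ∏ p ∈ I, ‖Lp p (1 + z) (ω p)‖ ^ 4 = (∏ p ∈ I, ‖Lp p (1 + z) (ω p)‖ ^ 2) ^ 2 := by
      rw [← Finset.prod_pow]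
      refine Finset.prod_congr rfl fun p _ => ?_
      ring
    rw [e]
    nlinarith [sq_nonneg (MB I x z₀ ω ^ 2 - ∏ p ∈ I, ‖Lp p (1 + z) (ω p)‖ ^ 2)]
  refine h1.trans ?_
  rw [EE_add, EE_mul_left, EE_mul_left]
  have hSum0 : 0 ≤ ∑ p ∈ I, (1 : ℝ) / p := Finset.sum_nonneg fun p _ => by positivity
  have h2 : EE I (fun ω => MB I x z₀ ω ^ 4) ≤ Real.exp (3000000 * ∑ p ∈ I, (1 : ℝ) / p) := by
    refine (EE_MB4 hI hc x hz₀).trans (Real.exp_le_exp.2 ?_)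
    have := sum_rpow_le_inv hI (t := 2 * z₀) (by linarith)
    linarith
  have h3 : EE I (fun ω => ∏ p ∈ I, ‖Lp p (1 + z) (ω p)‖ ^ 4) ≤
      Real.exp (3000000 * ∑ p ∈ I, (1 : ℝ) / p) := by
    refine (EE_L4' hI hI3 hc hz).trans (Real.exp_le_exp.2 ?_)
    have := sum_rpow_le_inv hI (t := 2 * z.re) (by linarith)
    linarith
  linarith

/-- the truncation error times the Euler product, at the shift itself -/
theorem EE_RBL (hc : StCoef) {x : ℝ} (hx : 0 < x) {z₀ T : ℝ} (hz₀ : 0 ≤ z₀)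
    (hT : ∑ p ∈ I, (p : ℝ) ^ (-1 - z₀) ≤ T) :
    EE I (fun ω => RB I x z₀ ω ^ 2 * ∏ p ∈ I, ‖Lp p (1 + (z₀ : ℂ)) (ω p)‖ ^ 2) ≤
      (x ^ (-(z₀ / 2))) ^ 2 * Real.exp (3000000 * T) := by
  have hS : ∀ p ∈ I, 1 ≤ p := fun p hp => (hI p hp).one_lt.le
  have hxp : 0 < x ^ (-(z₀ / 2)) := Real.rpow_pos_of_pos hx _
  set q := (x ^ (-(z₀ / 2))) ^ 2 with hq
  have hq0 : 0 < q := by positivity
  have h1 : EE I (fun ω => RB I x z₀ ω ^ 2 * ∏ p ∈ I, ‖Lp p (1 + (z₀ : ℂ)) (ω p)‖ ^ 2) ≤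
      EE I (fun ω => q⁻¹ / 2 * RB I x z₀ ω ^ 4 +
        q / 2 * ∏ p ∈ I, ‖Lp p (1 + (z₀ : ℂ)) (ω p)‖ ^ 4) := by
    refine EE_mono hS fun ω _ => ?_
    have e : ∏ p ∈ I, ‖Lp p (1 + (z₀ : ℂ)) (ω p)‖ ^ 4 =
        (∏ p ∈ I, ‖Lp p (1 + (z₀ : ℂ)) (ω p)‖ ^ 2) ^ 2 := by
      rw [← Finset.prod_pow]
      refine Finset.prod_congr rfl fun p _ => ?_
      ring
    rw [e]
    set b := ∏ p ∈ I, ‖Lp p (1 + (z₀ : ℂ)) (ω p)‖ ^ 2
    set a := RB I x z₀ ω ^ 2 with ha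
    have e2 : RB I x z₀ ω ^ 4 = a ^ 2 := by rw [ha]; ring
    rw [e2]
    have h0 : 0 ≤ (q⁻¹ * a - b) ^ 2 * q := by positivity
    have h3 : (q⁻¹ * a - b) ^ 2 * q = q⁻¹ * a ^ 2 - 2 * a * b + q * b ^ 2 := by
      field_simp
      ring
    nlinarith
  refine h1.trans ?_
  rw [EE_add, EE_mul_left, EE_mul_left]
  have hT0 : 0 ≤ ∑ p ∈ I, (p : ℝ) ^ (-1 - z₀) := Finset.sum_nonneg fun p _ => by positivity
  have h2 := EE_RB4 hI hc hx hz₀
  have h4 : (x ^ (-(z₀ / 2))) ^ 4 = q ^ 2 := by rw [hq]; ring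
  rw [h4] at h2
  have h2' : EE I (fun ω => RB I x z₀ ω ^ 4) ≤ q ^ 2 * Real.exp (3000000 * T) := by
    refine h2.trans ?_
    gcongr
    linarith
  have h3 : EE I (fun ω => ∏ p ∈ I, ‖Lp p (1 + (z₀ : ℂ)) (ω p)‖ ^ 4) ≤
      Real.exp (3000000 * T) := by
    refine (EE_L4' hI hI3 hc (z := (z₀ : ℂ)) (by simpa using hz₀)).trans
      (Real.exp_le_exp.2 ?_)
    have h5 : ∑ p ∈ I, (p : ℝ) ^ (-1 - 2 * ((z₀ : ℂ)).re) ≤ ∑ p ∈ I, (p : ℝ) ^ (-1 - z₀) := by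
      refine Finset.sum_le_sum fun p hp => ?_
      apply Real.rpow_le_rpow_of_exponent_le (by exact_mod_cast hS p hp)
      simp only [Complex.ofReal_re]
      linarith
    linarith
  calc q⁻¹ / 2 * EE I (fun ω => RB I x z₀ ω ^ 4) +
        q / 2 * EE I (fun ω => ∏ p ∈ I, ‖Lp p (1 + (z₀ : ℂ)) (ω p)‖ ^ 4)
      ≤ q⁻¹ / 2 * (q ^ 2 * Real.exp (3000000 * T)) + q / 2 * Real.exp (3000000 * T) := by
        gcongr
    _ = q * Real.exp (3000000 * T) := by field_simp; ring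

end

/-! ### the primes of the big block -/

lemma mem_Ibx {L K : ℝ} {p : ℕ} : p ∈ Ibx L K ↔ (p : ℝ) ≤ yk L 0 ∧ p.Prime ∧ ¬ p ∣ bd ∧
    yk (L / K) 0 < p := by
  unfold Ibx
  rw [Finset.mem_filter, Finset.mem_range, Nat.lt_succ_iff, Nat.le_floor_iff (yk_pos L 0).le]

lemma Ibx_prime {L K : ℝ} {p : ℕ} (hp : p ∈ Ibx L K) : p.Prime := (mem_Ibx.1 hp).2.1

lemma Ibx_three {L K : ℝ} {p : ℕ} (hp : p ∈ Ibx L K) : 3 ≤ p :=
  three_le (mem_Ibx.1 hp).2.1 (mem_Ibx.1 hp).2.2.1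

lemma Mbx_eq (L K : ℝ) (ω : ℕ → ℝ) :
    Mbx L K (P004.H628.ffx ω) = MB (Ibx L K) (Real.exp (L / 4000)) (K / L) ω := by
  unfold Mbx MB Abx
  rw [Finset.sum_filter]
  refine Finset.sum_congr rfl fun a _ => ?_
  split_ifs
  · rfl
  · simp

/-- the sum of `1/p` over the primes of the big block -/
lemma sum_Ibx {L K : ℝ} (hL : 1 ≤ L) (hK : 1 ≤ K) :
    ∑ p ∈ Ibx L K, (1 : ℝ) / p ≤ 8 * (1 + Real.log K) := by
  have hL0 : 0 < L := by linarith
  have hK0 : 0 < K := by linarith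
  have hlogK : 0 ≤ Real.log K := Real.log_nonneg hK
  rcases lt_or_ge (yk L 0) 2 with h | h
  · have : Ibx L K = ∅ := by
      rw [Finset.eq_empty_iff_forall_notMem]
      intro p hp
      have h3 : (2 : ℝ) ≤ p := by exact_mod_cast (Ibx_prime hp).two_le
      linarith [(mem_Ibx.1 hp).1]
    rw [this]
    simp
    linarith
  · have hyle : yk (L / K) 0 ≤ yk L 0 := by
      unfold yk
      apply Real.exp_le_exp.2
      have : L / K ≤ L := div_le_self hL0.le hK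
      gcongr
    have hle : max 2 (yk (L / K) 0) ≤ yk L 0 := max_le h hyle
    have h1 := sum_inv_range (S := Ibx L K) (fun p hp => Ibx_prime hp) (le_max_left _ _) hle
      (fun p hp => by
        refine max_le ?_ (mem_Ibx.1 hp).2.2.2.le
        exact_mod_cast (Ibx_prime hp).two_le) (fun p hp => (mem_Ibx.1 hp).1)
    refine h1.trans ?_
    have hly : 0 < Real.log (max 2 (yk (L / K) 0)) :=
      Real.log_pos (by linarith [le_max_left 2 (yk (L / K) 0)])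
    have hly2 : L / K / 8000 ≤ Real.log (max 2 (yk (L / K) 0)) := by
      have h2 : Real.log (yk (L / K) 0) = L / K / 8000 := by rw [log_yk]; simp
      rw [← h2]
      exact Real.log_le_log (yk_pos _ _) (le_max_right _ _)
    have h2 : Real.log (yk L 0) / Real.log (max 2 (yk (L / K) 0)) ≤ K := by
      rw [div_le_iff₀ hly, log_yk]
      simp only [CharP.cast_eq_zero, neg_zero, Real.exp_zero, mul_one]
      calc L / 8000 = K * (L / K / 8000) := by field_simp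
        _ ≤ _ := by gcongr
    have h3 : 0 < Real.log (yk L 0) := Real.log_pos (by linarith)
    have h4 : Real.log (Real.log (yk L 0) / Real.log (max 2 (yk (L / K) 0))) ≤ Real.log K :=
      Real.log_le_log (by positivity) h2
    linarith

/-- the damped sum is bounded -/
lemma sum_Ibx' {L K : ℝ} (hL : 1 ≤ L) (hK : 1 ≤ K) (hKL : K ≤ L) :
    ∑ p ∈ Ibx L K, (p : ℝ) ^ (-1 - K / L) ≤ 2640 := by
  have hL0 : 0 < L := by linarith
  have hK0 : 0 < K := by linarith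
  set y : ℝ := max 2 (yk (L / K) 0) with hy
  have hy2 : 2 ≤ y := le_max_left _ _
  have hly0 : 0 < Real.log y := Real.log_pos (by linarith)
  have hly : L / K / 8000 ≤ Real.log y := by
    have h1 : Real.log (yk (L / K) 0) = L / K / 8000 := by rw [log_yk]; simp
    rw [← h1]
    exact Real.log_le_log (yk_pos _ _) (le_max_right _ _)
  have h1 := sum_rpow_tail' (S := Ibx L K) (fun p hp => Ibx_prime hp) hy2 (σ := K / L)
    (by positivity) (by rw [div_le_one hL0]; exact hKL) (fun p hp => by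
      refine max_le ?_ (mem_Ibx.1 hp).2.2.2.le
      exact_mod_cast (Ibx_prime hp).two_le)
  refine h1.trans ?_
  have hkl : 1 / 8000 ≤ K / L * Real.log y := by
    calc (1 : ℝ) / 8000 = K / L * (L / K / 8000) := by field_simp
      _ ≤ _ := by gcongr
  have h3 : Real.exp (-(K / L) * Real.log y) ≤ 1 := by
    apply Real.exp_le_one_iff.2
    linarith
  have h4 : 1 + 1 / (K / L * Real.log y) ≤ 8001 := by
    have : 1 / (K / L * Real.log y) ≤ 8000 := by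
      rw [div_le_iff₀ (by positivity)]
      linarith
    linarith
  have h5 : Real.log (1 + 1 / (K / L * Real.log y)) ≤ 9 := by
    have h6 : Real.log (1 + 1 / (K / L * Real.log y)) ≤ Real.log 8001 :=
      Real.log_le_log (by positivity) h4
    have h7 : Real.log 8001 ≤ 9 := by
      rw [Real.log_le_iff_le_exp (by norm_num)]
      have : Real.exp 9 = Real.exp 1 ^ 9 := by rw [← Real.exp_nat_mul]; norm_num
      rw [this]
      have h8 : (2.718 : ℝ) ≤ Real.exp 1 := by linarith [Real.exp_one_gt_d9]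
      calc (8001 : ℝ) ≤ 2.718 ^ 9 := by norm_num
        _ ≤ Real.exp 1 ^ 9 := by gcongr
    linarith
  have h6 : 0 ≤ Real.log (1 + 1 / (K / L * Real.log y)) := by
    apply Real.log_nonneg
    have : 0 ≤ 1 / (K / L * Real.log y) := by positivity
    linarith
  calc 264 * Real.exp (-(K / L) * Real.log y) * (1 + Real.log (1 + 1 / (K / L * Real.log y)))
      ≤ 264 * 1 * (1 + 9) := by gcongr
    _ = _ := by norm_num

/-- second moment of the big block, as used by `StR4x` -/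
theorem EE_Big1 (hc : StCoef) : ∃ (C : ℝ) (A : ℕ), 1 ≤ C ∧ ∀ L K : ℝ, 1 ≤ L → 1 ≤ K →
    EE (Ibx L K) (fun ω => Mbx L K (P004.H628.ffx ω) ^ 2) ≤ C * K ^ A := by
  obtain ⟨A, hA⟩ : ∃ A : ℕ, (A : ℝ) = 24000000 := ⟨24000000, by norm_num⟩
  refine ⟨Real.exp A, A, Real.one_le_exp (Nat.cast_nonneg _), fun L K hL hK => ?_⟩
  have hK0 : 0 < K := by linarith
  have hL0 : 0 < L := by linarith
  simp only [Mbx_eq]
  refine (EE_MB2 (fun p hp => Ibx_prime hp) hc _ (z₀ := K / L) (by positivity)).trans ?_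
  have h1 := sum_rpow_le_inv (I := Ibx L K) (fun p hp => Ibx_prime hp) (t := 2 * (K / L))
    (by positivity)
  have h2 := sum_Ibx hL hK
  have hlogK : 0 ≤ Real.log K := Real.log_nonneg hK
  calc Real.exp (128 * ∑ p ∈ Ibx L K, (p : ℝ) ^ (-1 - 2 * (K / L)))
      ≤ Real.exp (A + Real.log K * A) := by
        apply Real.exp_le_exp.2
        rw [hA]
        linarith
    _ = Real.exp A * K ^ A := by
        rw [Real.exp_add, Real.exp_mul, Real.exp_log hK0, Real.rpow_natCast]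

/-- the big block times the Euler product, as used by `StR2x` -/
theorem EE_Big2 (hc : StCoef) : ∃ (C : ℝ) (A : ℕ), 1 ≤ C ∧ ∀ (L K : ℝ) (z : ℂ), 1 ≤ L → 1 ≤ K →
    0 ≤ z.re → EE (Ibx L K) (fun ω => Mbx L K (P004.H628.ffx ω) ^ 2 *
      ∏ p ∈ Ibx L K, ‖Lp p (1 + z) (ω p)‖ ^ 2) ≤ C * K ^ A := by
  obtain ⟨A, hA⟩ : ∃ A : ℕ, (A : ℝ) = 24000000 := ⟨24000000, by norm_num⟩
  refine ⟨Real.exp A, A, Real.one_le_exp (Nat.cast_nonneg _), fun L K z hL hK hz => ?_⟩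
  have hK0 : 0 < K := by linarith
  have hL0 : 0 < L := by linarith
  simp only [Mbx_eq]
  refine (EE_MBL (fun p hp => Ibx_prime hp) (fun p hp => Ibx_three hp) hc _ (z₀ := K / L)
    (by positivity) hz).trans ?_
  have h2 := sum_Ibx hL hK
  calc Real.exp (3000000 * ∑ p ∈ Ibx L K, (1 : ℝ) / p)
      ≤ Real.exp (A + Real.log K * A) := by
        apply Real.exp_le_exp.2
        rw [hA]
        linarith
    _ = Real.exp A * K ^ A := by
        rw [Real.exp_add, Real.exp_mul, Real.exp_log hK0, Real.rpow_natCast]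

end P004G.H293
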