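import Vale.Agent.P004G.Iface

/-!
# P004: a mollifier with exponentially small error

The mollifier `Mfx L K k₁ k₂` has the blocks of `Mf (L / K)` (same primes as the blocks of `L / K`, the
numbers of prime factors multiplied by `⌈K⌉`, the shift is `K / L`) and, when `k₁ = 0`, one more block
`Mbx`: the good primes in `(yk (L/K) 0, yk L 0]`, truncated by SIZE, `a ≤ exp (L / 4000)`.
-/

open Real MeasureTheory Set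
open scoped ENNReal

namespace P004G

variable [Crv]

open scoped Classical in
/-- the support of the small block `k` -/
noncomputable def Akx (L K : ℝ) (k : ℕ) : Finset ℕ :=
  ((∏ p ∈ Ik (L / K) k, p ^ 2).divisors).filter
    (fun a => ArithmeticFunction.cardFactors a ≤ ⌈K⌉₊ * lk k)

/-- the small block `k` -/
noncomputable def Mkx (L K : ℝ) (k : ℕ) (X : ℕ → ℝ) : ℝ :=
  ∑ a ∈ Akx L K k, muc a * (a : ℝ) ^ (-1 - K / L) * X a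

open scoped Classical in
/-- the good primes in `(yk (L/K) 0, yk L 0]` -/
noncomputable def Ibx (L K : ℝ) : Finset ℕ :=
  (Finset.range (⌊yk L 0⌋₊ + 1)).filter (fun p => p.Prime ∧ ¬ p ∣ bd ∧ yk (L / K) 0 < p)

open scoped Classical in
/-- the support of the big block -/
noncomputable def Abx (L K : ℝ) : Finset ℕ :=
  ((∏ p ∈ Ibx L K, p ^ 2).divisors).filter (fun a => (a : ℝ) ≤ Real.exp (L / 4000))

/-- the big block -/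
noncomputable def Mbx (L K : ℝ) (X : ℕ → ℝ) : ℝ :=
  ∑ a ∈ Abx L K, muc a * (a : ℝ) ^ (-1 - K / L) * X a

/-- the product of the blocks `k₁ ≤ k < k₂`; the big block is present if `k₁ = 0` -/
noncomputable def Mfx (L K : ℝ) (k₁ k₂ : ℕ) (X : ℕ → ℝ) : ℝ :=
  (if k₁ = 0 then Mbx L K X else 1) * ∏ k ∈ Finset.Ico k₁ k₂, Mkx L K k X

/-- Module M0x : the product of blocks as a Dirichlet polynomial. -/
def StPolyx : Prop :=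
  ∀ (L K : ℝ) (k₁ k₂ : ℕ), 1 ≤ L → 1 ≤ K → K ≤ L → ∃ (S : Finset ℕ) (m : ℕ → ℝ),
    (∀ X : ℕ → ℝ, CM X → Mfx L K k₁ k₂ X = ∑ a ∈ S, m a * X a) ∧
    (∀ a ∈ S, |m a| ≤ 1 ∧ Good a ∧ (a : ℝ) ≤ Real.exp (L / 700 * Real.exp (-(k₁ : ℝ) / 2)) ∧
      ∀ p : ℕ, p.Prime → p ∣ a → (p : ℝ) ≤ yk L k₁)

/-- Module R2x : second moment of the mollified random Euler product. -/
def StR2x : Prop :=
  ∃ C : ℝ, 1 ≤ C ∧ ∃ A : ℕ, ∀ (L K σ τ : ℝ) (j N : ℕ), 1 ≤ L → 1 ≤ K → K ≤ L →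
    1 / (2 * L) ≤ σ → σ ≤ 10 * K / L → yk L 0 < N →
    EN N (fun X => (Mfx L K (2 * j) ⌈L⌉₊ X) ^ 2 * ‖LN N X (1 + σ + τ * Complex.I)‖ ^ 2) ≤
      C * (K * 2 ^ j) ^ A * (1 + |τ| * L / 2 ^ j) ^ A

/-- Module R3x : mollification at the shift `K / L` itself, exponentially small error. -/
def StR3x : Prop :=
  ∃ C c : ℝ, 1 ≤ C ∧ 0 < c ∧ ∀ (L K : ℝ) (N : ℕ), 1 ≤ L → 1 ≤ K → K ≤ L → yk L 0 < N →
    EN N (fun X => ‖(Mfx L K 0 ⌈L⌉₊ X : ℂ) * LN N X (1 + K / L) - 1‖ ^ 2) ≤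
      C * Real.exp (-c * K)

/-- Module R4x : second moment of the first blocks. -/
def StR4x : Prop :=
  ∃ (C : ℝ) (A : ℕ), 1 ≤ C ∧ ∀ (L K : ℝ) (k₂ N : ℕ), 1 ≤ L → 1 ≤ K → K ≤ L → yk L 0 < N →
    EN N (fun X => (Mfx L K 0 k₂ X) ^ 2) ≤ C ^ (k₂ + 1) * K ^ A ∧
    EN N (fun X => (Mfx L K 0 ⌈L⌉₊ X) ^ 2) ≤ C * L ^ A

/-- Module Wx (consumed by the assembly). -/
def StMollx : Prop :=
  ∃ (n A : ℕ) (C c : ℝ), 1 ≤ C ∧ 0 < c ∧ ∀ (Y : ℕ) (K : ℝ), 3 ≤ Y → 1 ≤ K →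
    K ≤ Real.log Y ^ (1 / 8 : ℝ) → ∃ M Mr : ℕ → ℤ → ℝ,
    (∀ (j : ℕ) (m : ℤ), (2 : ℝ) ^ j ≤ Real.log Y ^ (1 / 4 : ℝ) → M 0 m = M j m * Mr j m) ∧
    (∀ (j : ℕ) (h : ℝ → ℝ) (b : ℝ), (2 : ℝ) ^ j ≤ Real.log Y ^ (1 / 4 : ℝ) → ContDiff ℝ n h →
      (∀ x, h x ≠ 0 → wj Y j ≤ x ∧ x ≤ 3 * Real.log Y) → 0 ≤ b →
      (∀ i ≤ n, ∀ x, |iteratedDeriv i h x| ≤ b * (wj Y j)⁻¹ ^ i) →
      ∑ m ∈ sqZ Y, (M j m * Fw Y h m) ^ 2 ≤ C * Y * (K * 2 ^ j) ^ A * b ^ 2) ∧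
    (∀ j : ℕ, (2 : ℝ) ^ j ≤ Real.log Y ^ (1 / 4 : ℝ) →
      ∑ m ∈ sqZ Y, (Mr j m) ^ 2 ≤ C * Y * (2 ^ j) ^ A) ∧
    ∑ m ∈ sqZ Y, (M 0 m) ^ 2 ≤ C * Y * Real.log Y ^ A ∧
    ∑ m ∈ sqZ Y, (M 0 m * Fw Y (fun x => psi Y x * Real.exp (K / Real.log Y * x)) m -
      cmain Y K) ^ 2 ≤ C * Y * Real.exp (2 * K - c * K)

open scoped Classical in
/-- Module I2x : the bound for one block. -/
def StBlockx : Prop :=
  ∃ c : ℝ, 0 < c ∧ ∀ B : ℕ, ∃ C : ℝ, 1 ≤ C ∧ ∀ (Y r : ℕ), 3 ≤ Y →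
    (((sqZ Y).filter (fun m => Y < 2 * m.natAbs ∧ Van m r)).card : ℝ) ≤
      C * Y * (Real.exp (-c * r) + Real.log Y ^ (-(B : ℝ)))

open scoped Classical in
/-- Module I3x : tail of any function `a` on the squarefree integers which is bounded by the order of
vanishing. -/
def StMomx : Prop :=
  ∀ a : ℤ → ℕ, (∀ m : ℤ, Squarefree m → m ≠ 1 → Van m (a m)) →
    ∃ c : ℝ, 0 < c ∧ ∀ B : ℕ, ∃ C : ℝ, 0 < C ∧ ∀ X : ℕ, 3 ≤ X → ∀ z : ℝ, 0 ≤ z →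
      (((sqZ X).filter (fun m => m ≠ 1 ∧ z ≤ (a m : ℝ))).card : ℝ) ≤
        C * X * (Real.exp (-c * z) + Real.log X ^ (-(B : ℝ)))

end P004G
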